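import Mathlib

namespace Vale.Agent.Results.P045.CounterexampleShape

open Finset

variable {r : ℕ} {V : Type}

/-- Two edges of an `r`-partite `r`-uniform hypergraph share a vertex. An edge is a function
`e : Fin r → V`; its vertex in the part `i` is the pair `(i, e i)`. -/
def Meets (e f : Fin r → V) : Prop := ∃ i, e i = f i

/-- The edges of `M` are pairwise disjoint. -/
def IsMatching (M : Finset (Fin r → V)) : Prop := ∀ e ∈ M, ∀ f ∈ M, e ≠ f → ¬ Meets e f

/-- The vertex set `C` meets every edge of `H`. -/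
def IsCover (H : Finset (Fin r → V)) (C : Finset (Fin r × V)) : Prop :=
  ∀ e ∈ H, ∃ i, (i, e i) ∈ C

/-- The matching number of `H` is at most `n`. -/
def NuLE (H : Finset (Fin r → V)) (n : ℕ) : Prop := ∀ M ⊆ H, IsMatching M → #M ≤ n

/-- The covering number of `H` is at most `t`. -/
def TauLE (H : Finset (Fin r → V)) (t : ℕ) : Prop := ∃ C, IsCover H C ∧ #C ≤ t

theorem NuLE.mono {H H' : Finset (Fin r → V)} {n : ℕ} (h : NuLE H n) (hs : H' ⊆ H) : NuLE H' n :=
  fun M hM hm => h M (hM.trans hs) hm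

theorem tau_half [DecidableEq V] (hr : 2 ≤ r) (n : ℕ) : ∀ (k : ℕ) (H : Finset (Fin r → V)),
    #H = k → NuLE H n → ∃ C, IsCover H C ∧ 2 * #C ≤ #H + n := by
  intro k
  induction k using Nat.strong_induction_on with
  | _ k ih =>
    intro H hk hν
    by_cases hm : IsMatching H
    · refine ⟨H.image (fun e => ((⟨0, by omega⟩ : Fin r), e ⟨0, by omega⟩)), ?_, ?_⟩
      · intro e he
        exact ⟨⟨0, by omega⟩, mem_image.2 ⟨e, he, rfl⟩⟩
      · have h1 : #(H.image (fun e => ((⟨0, by omega⟩ : Fin r), e ⟨0, by omega⟩))) ≤ #H :=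
          card_image_le
        have h2 := hν H subset_rfl hm
        omega
    · unfold IsMatching at hm
      push Not at hm
      obtain ⟨e, he, f, hf, hef, i, hi⟩ := hm
      have hfe : f ∈ H.erase e := mem_erase.2 ⟨fun h => hef h.symm, hf⟩
      have hc1 : #(H.erase e) + 1 = #H := card_erase_add_one he
      have hc2 : #((H.erase e).erase f) + 1 = #(H.erase e) := card_erase_add_one hfe
      have hsub : (H.erase e).erase f ⊆ H := (erase_subset _ _).trans (erase_subset _ _)
      obtain ⟨C', hC', hcard⟩ := ih #((H.erase e).erase f) (by omega) _ rfl (hν.mono hsub)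
      refine ⟨insert (i, e i) C', ?_, ?_⟩
      · intro g hg
        by_cases hge : g = e
        · exact ⟨i, by rw [hge]; exact mem_insert_self _ _⟩
        · by_cases hgf : g = f
          · exact ⟨i, by rw [hgf, ← hi]; exact mem_insert_self _ _⟩
          · obtain ⟨j, hj⟩ := hC' g (mem_erase.2 ⟨hgf, mem_erase.2 ⟨hge, hg⟩⟩)
            exact ⟨j, mem_insert_of_mem hj⟩
      · have := card_insert_le (i, e i) C'
        omega

theorem exists_maximal_matching (H : Finset (Fin r → V)) :
    ∃ M ⊆ H, IsMatching M ∧ ∀ f ∈ H, f ∈ M ∨ ∃ e ∈ M, Meets e f := by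
  classical
  have hne : (H.powerset.filter (fun M => IsMatching M)).Nonempty :=
    ⟨∅, mem_filter.2 ⟨mem_powerset.2 (empty_subset _), fun e he => absurd he (notMem_empty e)⟩⟩
  obtain ⟨M, hM, hmax⟩ := exists_max_image _ (fun M => #M) hne
  rw [mem_filter, mem_powerset] at hM
  refine ⟨M, hM.1, hM.2, fun f hf => ?_⟩
  by_contra hcon
  push Not at hcon
  obtain ⟨hfM, hdis⟩ := hcon
  have hins : insert f M ∈ H.powerset.filter (fun M => IsMatching M) := by
    rw [mem_filter, mem_powerset]
    refine ⟨insert_subset hf hM.1, ?_⟩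
    intro a ha b hb hab
    rw [mem_insert] at ha hb
    rcases ha with rfl | ha <;> rcases hb with rfl | hb
    · exact absurd rfl hab
    · intro ⟨i, hi⟩
      exact hdis b hb ⟨i, hi.symm⟩
    · exact hdis a ha
    · exact hM.2 a ha b hb hab
  have := hmax _ hins
  rw [card_insert_of_notMem hfM] at this
  omega

theorem tau_redundant [DecidableEq V] (n : ℕ) (H : Finset (Fin r → V))
    (hν : NuLE H n) (i : Fin r)
    (hi : ∀ e ∈ H, ∀ f ∈ H, e i = f i → ∃ j, j ≠ i ∧ e j = f j) : TauLE H ((r - 1) * n) := by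
  obtain ⟨M, hMH, hM, hmax⟩ := exists_maximal_matching H
  refine ⟨((univ.erase i) ×ˢ M).image (fun p => (p.1, p.2 p.1)), ?_, ?_⟩
  · intro f hf
    have key : ∃ e ∈ M, ∃ j, j ≠ i ∧ e j = f j := by
      rcases hmax f hf with h | ⟨e, he, k, hk⟩
      · obtain ⟨j, hj, -⟩ := hi f hf f hf rfl
        exact ⟨f, h, j, hj, rfl⟩
      · by_cases hki : k = i
        · obtain ⟨j, hj, hj'⟩ := hi e (hMH he) f hf (hki ▸ hk)
          exact ⟨e, he, j, hj, hj'⟩
        · exact ⟨e, he, k, hki, hk⟩
    obtain ⟨e, he, j, hj, hej⟩ := key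
    refine ⟨j, mem_image.2 ⟨(j, e), ?_, ?_⟩⟩
    · exact mem_product.2 ⟨mem_erase.2 ⟨hj, mem_univ _⟩, he⟩
    · simp [hej]
  · refine card_image_le.trans ?_
    rw [card_product, card_erase_of_mem (mem_univ i), card_univ, Fintype.card_fin]
    exact Nat.mul_le_mul_left _ (hν M hMH hM)

/-- Three properties of any counterexample to Ryser's conjecture.  Let `H` be an `r`-partite
`r`-uniform hypergraph (`r ≥ 2`) with matching number at most `n`.  Then the covering number is at
most `(|H| + n) / 2`, and it is at most `(r - 1) n` in each of the cases: (1) `H` has at most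
`(2 r - 3) n + 1` edges; (2) some part `i` is redundant, that is, any two edges that share their vertex
in the part `i` share a vertex in another part as well; (3) the edges use at most `(r - 1) n`
vertices of some part. -/
theorem result (r : ℕ) (hr : 2 ≤ r) (V : Type) [DecidableEq V] (H : Finset (Fin r → V)) (n : ℕ)
    (hν : NuLE H n) :
    TauLE H ((#H + n) / 2) ∧
    (#H ≤ (2 * r - 3) * n + 1 → TauLE H ((r - 1) * n)) ∧
    ((∃ i, ∀ e ∈ H, ∀ f ∈ H, e i = f i → ∃ j, j ≠ i ∧ e j = f j) → TauLE H ((r - 1) * n)) ∧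
    ((∃ i, #(H.image (fun e => e i)) ≤ (r - 1) * n) → TauLE H ((r - 1) * n)) := by
  obtain ⟨C, hC, hcard⟩ := tau_half hr n #H H rfl hν
  refine ⟨⟨C, hC, by omega⟩, fun hH => ⟨C, hC, ?_⟩, ?_, ?_⟩
  · obtain ⟨s, rfl⟩ : ∃ s, r = s + 2 := ⟨r - 2, by omega⟩
    have e1 : 2 * (s + 2) - 3 = 2 * s + 1 := by omega
    have e2 : s + 2 - 1 = s + 1 := by omega
    rw [e1] at hH
    rw [e2]
    nlinarith
  · rintro ⟨i, hi⟩
    exact tau_redundant n H hν i hi
  · rintro ⟨i, hi⟩
    refine ⟨(H.image (fun e => e i)).image (fun v => (i, v)), ?_, card_image_le.trans hi⟩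
    intro e he
    exact ⟨i, mem_image.2 ⟨e i, mem_image.2 ⟨e, he, rfl⟩, rfl⟩⟩

end Vale.Agent.Results.P045.CounterexampleShape
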